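import Vale.Agent.P129.Cx
import Vale.Agent.P129.Pos.Main

namespace Vale.Agent.Results.P129.A_indep

theorem result (𝕜 : Type) [RCLike 𝕜] :
    ((Cardinal.continuum.{0} = Cardinal.aleph 1 ∨
        ∃ S : Set (ℕ → ℕ), Cardinal.mk S ≤ Cardinal.aleph 1 ∧ ¬ IsMeagre S) →
      ∃ (X : Type) (_ : NormedAddCommGroup X) (_ : NormedSpace 𝕜 X), CompleteSpace X ∧
        ¬ FiniteDimensional 𝕜 X ∧ ¬ ∃ M : Submodule 𝕜 X, IsClosed (M : Set X) ∧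
          TopologicalSpace.SeparableSpace (X ⧸ M) ∧ ¬ FiniteDimensional 𝕜 (X ⧸ M)) ∧
    ((∀ ι : Type, ∃ μ : @MeasureTheory.Measure (Set ι) ⊤, μ Set.univ = 1 ∧
        μ {S | Cardinal.continuum ≤ Cardinal.mk S} = 0 ∧ (∀ i : ι, μ {S | i ∉ S} = 0) ∧
        ∀ A : Set (Set (Set ι)), Cardinal.mk A < Cardinal.continuum → (∀ B ∈ A, μ B = 0) →
          μ (⋃₀ A) = 0) →
      ∀ (X : Type) [NormedAddCommGroup X] [NormedSpace 𝕜 X], CompleteSpace X →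
        ¬ FiniteDimensional 𝕜 X → ∃ M : Submodule 𝕜 X, IsClosed (M : Set X) ∧
          TopologicalSpace.SeparableSpace (X ⧸ M) ∧ ¬ FiniteDimensional 𝕜 (X ⧸ M)) := by
  refine ⟨fun h => ?_, fun h X _ _ _ hX => Vale.Agent.P129.Pos.sq_of_fineAx h 𝕜 X hX⟩
  obtain ⟨S, hS, hm⟩ := h.elim Vale.Agent.P129.exists_nonmeagre_of_CH id
  obtain ⟨X, i1, i2, h1, h2, h3⟩ := Vale.Agent.P129.main_rc 𝕜 S hS hm
  exact ⟨X, i1, i2, h1, h2, fun ⟨M, a, b, c⟩ => c (h3 M a b)⟩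

end Vale.Agent.Results.P129.A_indep
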