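import Vale.Agent.P129.Main

namespace Vale.Agent.Results.P129.C_CHreal

theorem result
    (h : Cardinal.continuum.{0} = Cardinal.aleph 1 ∨
      ∃ S : Set (ℕ → ℕ), Cardinal.mk S ≤ Cardinal.aleph 1 ∧ ¬ IsMeagre S) :
    ∃ (X : Type) (_ : NormedAddCommGroup X) (_ : NormedSpace ℝ X), CompleteSpace X ∧
      ¬ FiniteDimensional ℝ X ∧ ∀ M : Submodule ℝ X, IsClosed (M : Set X) →
        TopologicalSpace.SeparableSpace (X ⧸ M) → FiniteDimensional ℝ (X ⧸ M) := by
  obtain ⟨S, hS, hm⟩ := h.elim Vale.Agent.P129.exists_nonmeagre_of_CH id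
  exact Vale.Agent.P129.main_real S hS hm

end Vale.Agent.Results.P129.C_CHreal
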